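import Vale.Agent.P024.Main

namespace Vale.Agent.Results.P024.Uchida

theorem result (F₁ F₂ E₁ E₂ : Type) [Field F₁] [NumberField F₁] [Field F₂] [NumberField F₂]
    [Field E₁] [Field E₂] [Algebra F₁ E₁] [Algebra F₂ E₂] [IsGalois F₁ E₁] [IsGalois F₂ E₂]
    (h₁ : ∀ L : IntermediateField E₁ (AlgebraicClosure E₁), IsAbelianGalois E₁ L → L = ⊥)
    (h₂ : ∀ L : IntermediateField E₂ (AlgebraicClosure E₂), IsAbelianGalois E₂ L → L = ⊥)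
    (α : (E₁ ≃ₐ[F₁] E₁) →* (E₂ ≃ₐ[F₂] E₂)) (hc : Continuous α) (ho : IsOpen (Set.range α)) :
    ∃ j : E₂ →+* E₁, ∀ (g : E₁ ≃ₐ[F₁] E₁) (x : E₂), g (j x) = j (α g x) :=
  Uc.uchida F₁ F₂ E₁ E₂ h₁ h₂ α hc ho

end Vale.Agent.Results.P024.Uchida
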